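import Mathlib

namespace Vale.Agent.Results.P205.WarpedTorus

open scoped ContDiff Real InnerProductSpace

theorem periodic_deriv (b : ℝ → ℝ) (L : ℝ) (hb : Function.Periodic b L) :
    Function.Periodic (deriv b) L := by
  intro u
  have h1 : deriv (fun x => b (x + L)) u = deriv b (u + L) := deriv_comp_add_const b L u
  have h2 : (fun x => b (x + L)) = b := funext hb
  rw [← h1, h2]

theorem exists_bound (ψ : ℝ → ℝ) (L : ℝ) (hL : 0 < L) (hc : Continuous ψ)
    (hper : Function.Periodic ψ L) : ∃ M : ℝ, 0 ≤ M ∧ ∀ u, ψ u ≤ M := by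
  obtain ⟨M, hM⟩ := (isCompact_Icc (a := (0 : ℝ)) (b := L)).bddAbove_image hc.continuousOn
  refine ⟨max M 0, le_max_right _ _, fun u => ?_⟩
  obtain ⟨y, hy, hyu⟩ := hper.exists_mem_Ico₀ hL u
  rw [hyu]
  exact le_trans (hM ⟨y, ⟨hy.1, hy.2.le⟩, rfl⟩) (le_max_left _ _)

theorem result (a b : ℝ → ℝ) (L P τ : ℝ) (hL : 0 < L) (hP : 0 < P)
    (ha : ContDiff ℝ ∞ a) (hb : ContDiff ℝ ∞ b)
    (hapos : ∀ u, 0 < a u) (_hbpos : ∀ u, 0 < b u)
    (haper : Function.Periodic a L) (hbper : Function.Periodic b L)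
    (hτ : ∃ (q : ℕ) (p : ℤ), 0 < q ∧ (q : ℝ) * τ = p * P) :
    ∃ F : ℝ × ℝ → EuclideanSpace ℝ (Fin 4),
      ContDiff ℝ ∞ F ∧
      (∀ u v, F (u + L, v + τ) = F (u, v)) ∧
      (∀ u v, F (u, v + P) = F (u, v)) ∧
      ∀ (x ξ η : ℝ × ℝ),
        ⟪fderiv ℝ F x ξ, fderiv ℝ F x η⟫_ℝ
          = a x.1 ^ 2 * ξ.1 * η.1 + b x.1 ^ 2 * ξ.2 * η.2 := by
  obtain ⟨q, p, hq, hqp⟩ := hτ
  have hb' : ContDiff ℝ ∞ (deriv b) := (contDiff_infty_iff_deriv.1 hb).2
  have hbd : Differentiable ℝ b := (contDiff_infty_iff_deriv.1 hb).1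
  have hb'per := periodic_deriv b L hbper
  -- the bound
  obtain ⟨M, hM0, hM⟩ := exists_bound (fun u => (deriv b u) ^ 2 / (a u) ^ 2) L hL
    (by
      apply Continuous.div (hb'.continuous.pow 2) (ha.continuous.pow 2)
      intro u
      exact (pow_pos (hapos u) 2).ne')
    (by
      intro u
      simp only [hb'per u, haper u])
  obtain ⟨N, hN⟩ := exists_nat_gt ((M + 1) * P / (2 * π))
  have hpi : 0 < 2 * π := by positivity
  set c : ℝ := 2 * π * (q * N) / P with hc
  have hq1 : (1 : ℝ) ≤ q := by exact_mod_cast hq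
  have hN0 : (0 : ℝ) < N := lt_of_le_of_lt (by positivity) hN
  have hcM : M + 1 < c := by
    have h1 : (M + 1) * P < N * (2 * π) := by
      rwa [div_lt_iff₀ hpi] at hN
    have h2 : (N : ℝ) * (2 * π) ≤ 2 * π * (q * N) := by
      nlinarith [mul_nonneg (sub_nonneg.2 hq1) (mul_pos hN0 hpi).le]
    rw [hc, lt_div_iff₀ hP]
    linarith
  have hc0 : 0 < c := by linarith
  have hc2 : M < c ^ 2 := by nlinarith
  have hpos : ∀ u, 0 < a u ^ 2 - (deriv b u) ^ 2 / c ^ 2 := by
    intro u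
    have h1 := hM u
    have ha2 : 0 < a u ^ 2 := pow_pos (hapos u) 2
    rw [div_le_iff₀ ha2] at h1
    have h2 : (deriv b u) ^ 2 < c ^ 2 * a u ^ 2 := by nlinarith
    have h3 : (deriv b u) ^ 2 / c ^ 2 < a u ^ 2 := by
      rw [div_lt_iff₀ (pow_pos hc0 2)]
      linarith
    linarith
  set φ : ℝ → ℝ := fun u => √(a u ^ 2 - (deriv b u) ^ 2 / c ^ 2) with hφ
  have hφsm : ContDiff ℝ ∞ φ :=
    ContDiff.sqrt ((ha.pow 2).sub ((hb'.pow 2).div_const _)) (fun u => (hpos u).ne')
  have hφpos : ∀ u, 0 < φ u := fun u => Real.sqrt_pos.2 (hpos u)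
  have hφsq : ∀ u, φ u ^ 2 = a u ^ 2 - (deriv b u) ^ 2 / c ^ 2 := fun u =>
    Real.sq_sqrt (hpos u).le
  have hφper : Function.Periodic φ L := by
    intro u
    simp only [hφ, hb'per u, haper u]
  have hφc : Continuous φ := hφsm.continuous
  set s : ℝ → ℝ := fun u => ∫ x in (0 : ℝ)..u, φ x with hs
  have hsder : ∀ u, HasDerivAt s (φ u) u := fun u =>
    intervalIntegral.integral_hasDerivAt_right (hφc.intervalIntegrable _ _)
      (hφc.stronglyMeasurableAtFilter _ _) hφc.continuousAt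
  have hssm : ContDiff ℝ ∞ s := by
    rw [contDiff_infty_iff_deriv]
    refine ⟨fun u => (hsder u).differentiableAt, ?_⟩
    have : deriv s = φ := funext fun u => (hsder u).deriv
    rw [this]
    exact hφsm
  have hsL : 0 < s L :=
    intervalIntegral.intervalIntegral_pos_of_pos (hφc.intervalIntegrable _ _) hφpos hL
  have hsadd : ∀ u, s (u + L) = s u + s L := by
    intro u
    have h1 : (∫ x in (0 : ℝ)..u, φ x) + (∫ x in u..(u + L), φ x) = ∫ x in (0 : ℝ)..(u + L), φ x :=
      intervalIntegral.integral_add_adjacent_intervals (hφc.intervalIntegrable _ _)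
        (hφc.intervalIntegrable _ _)
    have h2 : (∫ x in u..(u + L), φ x) = ∫ x in (0 : ℝ)..(0 + L), φ x :=
      hφper.intervalIntegral_add_eq u 0
    simp only [hs]
    rw [← h1, h2, zero_add]
  set R : ℝ := s L / (2 * π) with hR
  have hR0 : 0 < R := div_pos hsL hpi
  have hsR : s L / R = 2 * π := by
    rw [hR]; field_simp
  let F : ℝ × ℝ → EuclideanSpace ℝ (Fin 4) := fun x =>
    !₂[b x.1 / c * Real.cos (c * x.2), b x.1 / c * Real.sin (c * x.2),
      R * Real.cos (s x.1 / R), R * Real.sin (s x.1 / R)]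
  have hF0 : ∀ x, F x 0 = b x.1 / c * Real.cos (c * x.2) := fun x => rfl
  have hF1 : ∀ x, F x 1 = b x.1 / c * Real.sin (c * x.2) := fun x => rfl
  have hF2 : ∀ x, F x 2 = R * Real.cos (s x.1 / R) := fun x => rfl
  have hF3 : ∀ x, F x 3 = R * Real.sin (s x.1 / R) := fun x => rfl
  have hFsm : ContDiff ℝ ∞ F := by
    rw [contDiff_euclidean]
    intro i
    fin_cases i
    · exact ((hb.comp contDiff_fst).div_const c).mul
        (Real.contDiff_cos.comp (contDiff_const.mul contDiff_snd))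
    · exact ((hb.comp contDiff_fst).div_const c).mul
        (Real.contDiff_sin.comp (contDiff_const.mul contDiff_snd))
    · exact contDiff_const.mul (Real.contDiff_cos.comp ((hssm.comp contDiff_fst).div_const R))
    · exact contDiff_const.mul (Real.contDiff_sin.comp ((hssm.comp contDiff_fst).div_const R))
  have hcτ : c * τ = (N * p : ℤ) * (2 * π) := by
    calc c * τ = 2 * π * N * (q * τ) / P := by rw [hc]; ring
      _ = 2 * π * N * (p * P) / P := by rw [hqp]
      _ = ((N * p : ℤ) : ℝ) * (2 * π) := by push_cast; field_simp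
  have hcP : c * P = (q * N : ℕ) * (2 * π) := by
    rw [hc]
    push_cast
    field_simp
  refine ⟨F, hFsm, ?_, ?_, ?_⟩
  · intro u v
    ext i
    fin_cases i
    · show b (u + L) / c * Real.cos (c * (v + τ)) = b u / c * Real.cos (c * v)
      rw [hbper u, mul_add, hcτ, Real.cos_add_int_mul_two_pi]
    · show b (u + L) / c * Real.sin (c * (v + τ)) = b u / c * Real.sin (c * v)
      rw [hbper u, mul_add, hcτ, Real.sin_add_int_mul_two_pi]
    · show R * Real.cos (s (u + L) / R) = R * Real.cos (s u / R)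
      rw [hsadd u, add_div, hsR, Real.cos_add_two_pi]
    · show R * Real.sin (s (u + L) / R) = R * Real.sin (s u / R)
      rw [hsadd u, add_div, hsR, Real.sin_add_two_pi]
  · intro u v
    ext i
    fin_cases i
    · show b u / c * Real.cos (c * (v + P)) = b u / c * Real.cos (c * v)
      rw [mul_add, hcP, Real.cos_add_nat_mul_two_pi]
    · show b u / c * Real.sin (c * (v + P)) = b u / c * Real.sin (c * v)
      rw [mul_add, hcP, Real.sin_add_nat_mul_two_pi]
    · rfl
    · rfl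
  · intro x ξ η
    have hFd : DifferentiableAt ℝ F x := (hFsm.differentiable (by simp)).differentiableAt
    have hcomp : ∀ (i : Fin 4) (ζ : ℝ × ℝ),
        (fderiv ℝ F x ζ) i = fderiv ℝ (fun y => F y i) x ζ := by
      intro i ζ
      have h0 : HasFDerivAt ((PiLp.proj 2 (fun _ : Fin 4 => ℝ) i) ∘ F)
          ((PiLp.proj 2 (fun _ : Fin 4 => ℝ) i).comp (fderiv ℝ F x)) x :=
        (ContinuousLinearMap.hasFDerivAt (PiLp.proj 2 (fun _ : Fin 4 => ℝ) i)).comp x
          hFd.hasFDerivAt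
      have h1 : HasFDerivAt (fun y => F y i)
          ((PiLp.proj 2 (fun _ : Fin 4 => ℝ) i).comp (fderiv ℝ F x)) x := h0
      rw [h1.fderiv]
      rfl
    have hbx : HasFDerivAt (fun y : ℝ × ℝ => b y.1 / c)
        ((deriv b x.1 / c) • ContinuousLinearMap.fst ℝ ℝ ℝ) x :=
      ((hbd x.1).hasDerivAt.div_const c).comp_hasFDerivAt x hasFDerivAt_fst
    have hcosx : HasFDerivAt (fun y : ℝ × ℝ => Real.cos (c * y.2))
        ((-Real.sin (c * x.2) * c) • ContinuousLinearMap.snd ℝ ℝ ℝ) x := by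
      have h1 : HasDerivAt (fun v : ℝ => Real.cos (c * v)) (-Real.sin (c * x.2) * c) x.2 := by
        have := ((hasDerivAt_id x.2).const_mul c).cos
        simpa using this
      exact h1.comp_hasFDerivAt x hasFDerivAt_snd
    have hsinx : HasFDerivAt (fun y : ℝ × ℝ => Real.sin (c * y.2))
        ((Real.cos (c * x.2) * c) • ContinuousLinearMap.snd ℝ ℝ ℝ) x := by
      have h1 : HasDerivAt (fun v : ℝ => Real.sin (c * v)) (Real.cos (c * x.2) * c) x.2 := by
        have := ((hasDerivAt_id x.2).const_mul c).sin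
        simpa using this
      exact h1.comp_hasFDerivAt x hasFDerivAt_snd
    have hC2 : HasFDerivAt (fun y : ℝ × ℝ => R * Real.cos (s y.1 / R))
        ((R * (-Real.sin (s x.1 / R) * (φ x.1 / R))) • ContinuousLinearMap.fst ℝ ℝ ℝ) x := by
      have h1 : HasDerivAt (fun u : ℝ => R * Real.cos (s u / R))
          (R * (-Real.sin (s x.1 / R) * (φ x.1 / R))) x.1 :=
        ((hsder x.1).div_const R).cos.const_mul R
      exact h1.comp_hasFDerivAt x hasFDerivAt_fst
    have hS2 : HasFDerivAt (fun y : ℝ × ℝ => R * Real.sin (s y.1 / R))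
        ((R * (Real.cos (s x.1 / R) * (φ x.1 / R))) • ContinuousLinearMap.fst ℝ ℝ ℝ) x := by
      have h1 : HasDerivAt (fun u : ℝ => R * Real.sin (s u / R))
          (R * (Real.cos (s x.1 / R) * (φ x.1 / R))) x.1 :=
        ((hsder x.1).div_const R).sin.const_mul R
      exact h1.comp_hasFDerivAt x hasFDerivAt_fst
    have hD0 : ∀ ζ : ℝ × ℝ, (fderiv ℝ F x ζ) 0
        = deriv b x.1 / c * Real.cos (c * x.2) * ζ.1 - b x.1 * Real.sin (c * x.2) * ζ.2 := by
      intro ζ
      rw [hcomp 0 ζ]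
      have h := (hbx.mul hcosx).fderiv
      have h' : fderiv ℝ (fun y => F y 0) x = _ := h
      rw [h']
      simp
      field_simp
      ring
    have hD1 : ∀ ζ : ℝ × ℝ, (fderiv ℝ F x ζ) 1
        = deriv b x.1 / c * Real.sin (c * x.2) * ζ.1 + b x.1 * Real.cos (c * x.2) * ζ.2 := by
      intro ζ
      rw [hcomp 1 ζ]
      have h := (hbx.mul hsinx).fderiv
      have h' : fderiv ℝ (fun y => F y 1) x = _ := h
      rw [h']
      simp
      field_simp
      ring
    have hD2 : ∀ ζ : ℝ × ℝ, (fderiv ℝ F x ζ) 2 = - φ x.1 * Real.sin (s x.1 / R) * ζ.1 := by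
      intro ζ
      rw [hcomp 2 ζ]
      have h' : fderiv ℝ (fun y => F y 2) x = _ := hC2.fderiv
      rw [h']
      simp only [smul_apply, ContinuousLinearMap.coe_fst', smul_eq_mul]
      field_simp
    have hD3 : ∀ ζ : ℝ × ℝ, (fderiv ℝ F x ζ) 3 = φ x.1 * Real.cos (s x.1 / R) * ζ.1 := by
      intro ζ
      rw [hcomp 3 ζ]
      have h' : fderiv ℝ (fun y => F y 3) x = _ := hS2.fderiv
      rw [h']
      simp only [smul_apply, ContinuousLinearMap.coe_fst', smul_eq_mul]
      field_simp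
    rw [PiLp.inner_apply, Fin.sum_univ_four]
    simp only [hD0, hD1, hD2, hD3, RCLike.inner_apply, conj_trivial]
    have h1 := Real.cos_sq_add_sin_sq (c * x.2)
    have h2 := Real.cos_sq_add_sin_sq (s x.1 / R)
    have h3 := hφsq x.1
    linear_combination ((deriv b x.1 / c) ^ 2 * ξ.1 * η.1 + b x.1 ^ 2 * ξ.2 * η.2) * h1
      + (φ x.1 ^ 2 * ξ.1 * η.1) * h2 + (ξ.1 * η.1) * h3

end Vale.Agent.Results.P205.WarpedTorus
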